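import Vale.Agent.P085.Final

open scoped ComplexOrder

universe u

namespace Vale.Agent.Results.P085.Generator

section abstract

variable {A : Type u}

/-- A faithful tracial state on a complex star-algebra. -/
structure IsFaithfulTracialState [Ring A] [StarRing A] [Algebra ℂ A] (τ : A →ₗ[ℂ] ℂ) : Prop where
  map_one : τ 1 = 1
  nonneg : ∀ x, 0 ≤ τ (star x * x)
  tracial : ∀ x y, τ (x * y) = τ (y * x)
  faithful : ∀ x, τ (star x * x) = 0 → x = 0

/-- Normality: suprema of nonempty upward directed sets of positive elements are preserved. -/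
def IsNormal [Zero A] [PartialOrder A] (τ : A → ℂ) : Prop :=
  ∀ (D : Set A) (a : A), D.Nonempty → DirectedOn (· ≤ ·) D → (∀ x ∈ D, 0 ≤ x) → IsLUB D a →
    IsLUB ((fun x => (τ x).re) '' D) (τ a).re

variable [CStarAlgebra A]

/-- The centre of `M` consists of the scalar multiples of the identity. -/
def IsFactor (M : StarSubalgebra ℂ A) : Prop :=
  ∀ z ∈ M, (∀ x ∈ M, x * z = z * x) → ∃ c : ℂ, z = c • (1 : A)

/-- `M`, with the order of the ambient algebra, carries a faithful normal tracial state. -/
def HasFaithfulNormalTrace [PartialOrder A] (M : StarSubalgebra ℂ A) : Prop :=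
  ∃ τ : M →ₗ[ℂ] ℂ, IsFaithfulTracialState τ ∧ IsNormal τ

/-- An infinite-dimensional factor with a faithful normal tracial state. -/
def IsTypeTwoOneFactor [PartialOrder A] (M : StarSubalgebra ℂ A) : Prop :=
  IsFactor M ∧ ¬ FiniteDimensional ℂ M ∧ HasFaithfulNormalTrace M

/-- The unital star-subalgebra generated by `x`. -/
def starGen (x : A) : Set A := StarAlgebra.adjoin ℂ ({x} : Set A)

end abstract

variable {H : Type u} [NormedAddCommGroup H] [InnerProductSpace ℂ H] [CompleteSpace H]

/-- The closure of a set of operators in the weak operator topology. -/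
def wotClosure (S : Set (H →L[ℂ] H)) : Set (H →L[ℂ] H) :=
  {T | (ContinuousLinearMapWOT.ofCLM T : H →WOT[ℂ] H) ∈
    closure ((ContinuousLinearMapWOT.ofCLM : (H →L[ℂ] H) → (H →WOT[ℂ] H)) '' S)}

/-- Every type two-one factor acting on a separable Hilbert space is singly generated. -/
theorem result {H : Type u} [NormedAddCommGroup H] [InnerProductSpace ℂ H] [CompleteSpace H]
    [TopologicalSpace.SeparableSpace H] (M : VonNeumannAlgebra H)
    (hM : IsTypeTwoOneFactor M.toStarSubalgebra) :
    ∃ x ∈ M, (M : Set (H →L[ℂ] H)) = wotClosure (starGen x) := by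
  obtain ⟨hfac, hinf, τ, hτ, hn⟩ := hM
  obtain ⟨σ, hσ⟩ := Vale.Agent.P085.exists_clm τ hτ.nonneg
  refine Vale.Agent.P085.exists_generator_vN (τ := σ) ⟨by rw [hσ, hτ.map_one], fun x y => ?_,
    fun x => ?_, fun x hx => hτ.faithful x (by rw [← hσ, hx])⟩ ?_ hfac hinf
  · rw [hσ, hσ, hτ.tracial]
  · rw [hσ]; exact hτ.nonneg x
  · intro D a h1 h2 h3 h4
    simpa only [hσ] using hn D a h1 h2 h3 h4

end Vale.Agent.Results.P085.Generator
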